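/-
helper29: glue for S0329 (row 211).  S0329 follows from the frozen statement S0326 (planar
sheared-square covering lemma) and an upper bound for the `μHE[2]`-measure of a parallelogram in
`EuclideanSpace ℝ (Fin 3)`; both enter as hypotheses here.
-/
import Mathlib

set_option autoImplicit false

open MeasureTheory

namespace Crest.Agent.Helper29.S0329

abbrev E2 := EuclideanSpace ℝ (Fin 2)
abbrev E3 := EuclideanSpace ℝ (Fin 3)

lemma inner3 (x y : E3) : inner ℝ x y = x 0 * y 0 + x 1 * y 1 + x 2 * y 2 := by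
  simp [PiLp.inner_apply, Fin.sum_univ_three]
  ring

lemma inner2 (x y : E2) : inner ℝ x y = x 0 * y 0 + x 1 * y 1 := by
  simp [PiLp.inner_apply, Fin.sum_univ_two]
  ring

lemma normsq3 (x : E3) : ‖x‖ ^ 2 = x 0 ^ 2 + x 1 ^ 2 + x 2 ^ 2 := by
  rw [← real_inner_self_eq_norm_sq, inner3]; ring

lemma normsq2 (x : E2) : ‖x‖ ^ 2 = x 0 ^ 2 + x 1 ^ 2 := by
  rw [← real_inner_self_eq_norm_sq, inner2]; ring

/-- squared length of the lifted velocity `(1, g₀, h g₁)`. -/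
def mm (h : ℝ) (g : E2) : ℝ := 1 + (g 0) ^ 2 + h ^ 2 * (g 1) ^ 2

lemma one_le_mm (h : ℝ) (g : E2) : 1 ≤ mm h g := by
  unfold mm; nlinarith [sq_nonneg (g 0), sq_nonneg (h * g 1)]

lemma mm_pos (h : ℝ) (g : E2) : 0 < mm h g := lt_of_lt_of_le one_pos (one_le_mm h g)

/-- the lifted velocity. -/
def ww (h : ℝ) (g : E2) : E3 := !₂[1, g 0, h * g 1]

/-- the unit direction of the cylinder. -/
noncomputable def uu (h : ℝ) (g : E2) : E3 := (Real.sqrt (mm h g))⁻¹ • ww h g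

lemma norm_ww (h : ℝ) (g : E2) : ‖ww h g‖ = Real.sqrt (mm h g) := by
  have h1 : ‖ww h g‖ ^ 2 = mm h g := by
    rw [normsq3]; simp [ww, mm]; ring
  rw [← h1, Real.sqrt_sq (norm_nonneg _)]

lemma norm_uu (h : ℝ) (g : E2) : ‖uu h g‖ = 1 := by
  unfold uu
  rw [norm_smul, norm_ww, Real.norm_eq_abs, abs_of_pos (inv_pos.mpr (Real.sqrt_pos.mpr (mm_pos h g)))]
  exact inv_mul_cancel₀ (Real.sqrt_pos.mpr (mm_pos h g)).ne'

/-- coefficient of the planar point `ξ(y) - c` along `d`, normalised by `n2`. -/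
noncomputable def XX (h : ℝ) (c d g : E2) (n2 : ℝ) (y : E3) : ℝ :=
  ((y 1 - y 0 * g 0 - c 0) * d 0 + ((y 2 - y 0 * (h * g 1)) / h - c 1) * d 1) / n2

lemma continuous_XX (h : ℝ) (c d g : E2) (n2 : ℝ) : Continuous (XX h c d g n2) := by
  unfold XX
  fun_prop

/-- the open cylinder over the `η`-enlarged square. -/
def OO (h η : ℝ) (c a b g : E2) : Set E3 :=
  {y | -η < XX h c a g (‖a‖ ^ 2) y ∧ XX h c a g (‖a‖ ^ 2) y < 1 + η ∧
    -η < XX h c b g (‖a‖ ^ 2) y ∧ XX h c b g (‖a‖ ^ 2) y < 1 + η}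

lemma isOpen_OO (h η : ℝ) (c a b g : E2) : IsOpen (OO h η c a b g) := by
  have h1 := continuous_XX h c a g (‖a‖ ^ 2)
  have h2 := continuous_XX h c b g (‖a‖ ^ 2)
  exact (isOpen_lt continuous_const h1).inter ((isOpen_lt h1 continuous_const).inter
    ((isOpen_lt continuous_const h2).inter (isOpen_lt h2 continuous_const)))

/-- projection of the lifted planar point `(0, ζ₀, h ζ₁)` onto the plane orthogonal to `uu`. -/
noncomputable def PP (h : ℝ) (g : E2) (ζ : E2) : E3 :=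
  !₂[-(ζ 0 * g 0 + h ^ 2 * ζ 1 * g 1) / mm h g,
     ζ 0 - (ζ 0 * g 0 + h ^ 2 * ζ 1 * g 1) * g 0 / mm h g,
     h * ζ 1 - (ζ 0 * g 0 + h ^ 2 * ζ 1 * g 1) * (h * g 1) / mm h g]

lemma PP_lin (h : ℝ) (g c a b : E2) (X Y : ℝ) :
    PP h g (c + X • a + Y • b) = PP h g c + X • PP h g a + Y • PP h g b := by
  ext j
  fin_cases j <;> simp [PP] <;> ring

/-- the three scalar relations encoding `a ≠ 0`, `‖b‖ = ‖a‖`, `a ⊥ b` in the plane. -/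
lemma square_rel (a b : E2) (ha : a ≠ 0) (hab : ‖b‖ = ‖a‖) (horth : inner ℝ a b = 0) :
    0 < ‖a‖ ^ 2 ∧ ‖a‖ ^ 2 = a 0 ^ 2 + a 1 ^ 2 ∧ b 0 ^ 2 + b 1 ^ 2 = a 0 ^ 2 + a 1 ^ 2 ∧
      a 0 * b 0 + a 1 * b 1 = 0 := by
  refine ⟨by positivity, normsq2 a, ?_, ?_⟩
  · rw [← normsq2, ← normsq2, hab]
  · rw [← inner2]; exact horth

/-- basis expansion in an orthogonal frame of the plane. -/
lemma expand (a0 a1 b0 b1 v0 v1 n2 : ℝ) (hn : 0 < n2) (ha : n2 = a0 ^ 2 + a1 ^ 2)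
    (hb : b0 ^ 2 + b1 ^ 2 = a0 ^ 2 + a1 ^ 2) (ho : a0 * b0 + a1 * b1 = 0) :
    v0 = (v0 * a0 + v1 * a1) / n2 * a0 + (v0 * b0 + v1 * b1) / n2 * b0 ∧
    v1 = (v0 * a0 + v1 * a1) / n2 * a1 + (v0 * b0 + v1 * b1) / n2 * b1 := by
  have h1 : (a0 ^ 2 + a1 ^ 2) * (b0 ^ 2 - a1 ^ 2) = 0 := by
    linear_combination (a0 * b0 - a1 * b1) * ho + a1 ^ 2 * hb
  have h2 : (a0 ^ 2 + a1 ^ 2) * (b1 ^ 2 - a0 ^ 2) = 0 := by
    linear_combination (a1 * b1 - a0 * b0) * ho + a0 ^ 2 * hb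
  have h3 : (a0 ^ 2 + a1 ^ 2) * (b0 * b1 + a0 * a1) = 0 := by
    linear_combination (a0 * b1 + a1 * b0) * ho - a0 * a1 * hb
  have hne : a0 ^ 2 + a1 ^ 2 ≠ 0 := by rw [← ha]; exact hn.ne'
  have e1 : b0 ^ 2 = a1 ^ 2 := by
    have := (mul_eq_zero.mp h1).resolve_left hne; linarith
  have e2 : b1 ^ 2 = a0 ^ 2 := by
    have := (mul_eq_zero.mp h2).resolve_left hne; linarith
  have e3 : b0 * b1 = -(a0 * a1) := by
    have := (mul_eq_zero.mp h3).resolve_left hne; linarith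
  subst ha
  constructor
  · field_simp
    linear_combination (-v0) * e1 - v1 * e3
  · field_simp
    linear_combination (-v1) * e2 - v0 * e3

/-- a point of the open cylinder lying in the plane `uu^⊥` is an explicit combination. -/
lemma rep (h : ℝ) (hh : 0 < h) (c a b g : E2) (ha : a ≠ 0) (hab : ‖b‖ = ‖a‖)
    (horth : inner ℝ a b = 0) (y : E3) (hy : inner ℝ y (uu h g) = 0) :
    y = PP h g c + XX h c a g (‖a‖ ^ 2) y • PP h g a + XX h c b g (‖a‖ ^ 2) y • PP h g b := by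
  obtain ⟨hn, hn2, hb2, ho⟩ := square_rel a b ha hab horth
  have hm := mm_pos h g
  have hs : 0 < Real.sqrt (mm h g) := Real.sqrt_pos.mpr hm
  -- orthogonality in coordinates
  have he : y 0 + y 1 * g 0 + y 2 * (h * g 1) = 0 := by
    rw [inner3] at hy
    simp only [uu, ww, PiLp.smul_apply, smul_eq_mul] at hy
    simp at hy
    have : (Real.sqrt (mm h g))⁻¹ * (y 0 + y 1 * g 0 + y 2 * (h * g 1)) = 0 := by
      linear_combination hy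
    exact (mul_eq_zero.mp this).resolve_left (inv_pos.mpr hs).ne'
  set ζ0 : ℝ := y 1 - y 0 * g 0 with hζ0
  set ζ1 : ℝ := (y 2 - y 0 * (h * g 1)) / h with hζ1
  have hy2 : y 2 = h * ζ1 + y 0 * (h * g 1) := by
    rw [hζ1]; field_simp; ring
  have hy0 : y 0 = -(ζ0 * g 0 + h ^ 2 * ζ1 * g 1) / mm h g := by
    rw [eq_div_iff hm.ne']
    unfold mm
    rw [hy2] at he
    linear_combination he - (g 0) * hζ0 * 0
  obtain ⟨x0, x1⟩ := expand (a 0) (a 1) (b 0) (b 1) (ζ0 - c 0) (ζ1 - c 1) (‖a‖ ^ 2) hn hn2 hb2 ho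
  have hX : XX h c a g (‖a‖ ^ 2) y = ((ζ0 - c 0) * a 0 + (ζ1 - c 1) * a 1) / ‖a‖ ^ 2 := rfl
  have hY : XX h c b g (‖a‖ ^ 2) y = ((ζ0 - c 0) * b 0 + (ζ1 - c 1) * b 1) / ‖a‖ ^ 2 := rfl
  rw [← hX, ← hY] at x0 x1
  set X := XX h c a g (‖a‖ ^ 2) y
  set Y := XX h c b g (‖a‖ ^ 2) y
  have e0 : ζ0 = c 0 + X * a 0 + Y * b 0 := by linarith
  have e1 : ζ1 = c 1 + X * a 1 + Y * b 1 := by linarith
  rw [← PP_lin]
  ext j
  fin_cases j
  · simp only [PP, Fin.zero_eta]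
    simp
    rw [hy0, e0, e1]; ring
  · simp only [PP, Fin.mk_one]
    simp
    have : y 1 = ζ0 + y 0 * g 0 := by rw [hζ0]; ring
    rw [this, hy0, e0, e1]; ring
  · simp only [PP]
    simp
    rw [hy2, hy0, e0, e1]; ring

/-- Gram determinant of two projected lifted planar vectors. -/
lemma gram_PP (h : ℝ) (g a b : E2) :
    ‖PP h g a‖ ^ 2 * ‖PP h g b‖ ^ 2 - inner ℝ (PP h g a) (PP h g b) ^ 2
      = h ^ 2 * (a 0 * b 1 - a 1 * b 0) ^ 2 / mm h g := by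
  have hm := (mm_pos h g).ne'
  rw [normsq3, normsq3, inner3]
  simp only [PP]
  simp
  have hmm : mm h g = 1 + (g 0) ^ 2 + h ^ 2 * (g 1) ^ 2 := rfl
  generalize mm h g = m at hm hmm ⊢
  field_simp
  subst hmm
  ring

/-- interface hypothesis on the area kit: upper bound for the `μHE[2]`-measure of an open
parallelogram in three-space. -/
def ParLe : Prop :=
  ∀ (c A B : E3),
    μHE[2] {x : E3 | ∃ s ∈ Set.Ioo (0 : ℝ) 1, ∃ t ∈ Set.Ioo (0 : ℝ) 1, x = c + s • A + t • B}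
      ≤ ENNReal.ofReal (Real.sqrt (‖A‖ ^ 2 * ‖B‖ ^ 2 - inner ℝ A B ^ 2))

/-- the base of the cylinder over the `η`-enlarged square. -/
def BB (h η : ℝ) (c a b g : E2) : Set E3 := OO h η c a b g ∩ {x | inner ℝ x (uu h g) = 0}

lemma BB_sub_par (h η : ℝ) (hh : 0 < h) (hη : 0 < η) (c a b g : E2) (ha : a ≠ 0)
    (hab : ‖b‖ = ‖a‖) (horth : inner ℝ a b = 0) :
    BB h η c a b g ⊆ {x : E3 | ∃ s ∈ Set.Ioo (0 : ℝ) 1, ∃ t ∈ Set.Ioo (0 : ℝ) 1,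
      x = (PP h g c - η • PP h g a - η • PP h g b) + s • ((1 + 2 * η) • PP h g a)
        + t • ((1 + 2 * η) • PP h g b)} := by
  rintro y ⟨⟨hX1, hX2, hY1, hY2⟩, hy⟩
  have hrep := rep h hh c a b g ha hab horth y hy
  have h1 : (0 : ℝ) < 1 + 2 * η := by linarith
  refine ⟨(XX h c a g (‖a‖ ^ 2) y + η) / (1 + 2 * η),
    ⟨div_pos (by linarith) h1, by rw [div_lt_one h1]; linarith⟩,
    (XX h c b g (‖a‖ ^ 2) y + η) / (1 + 2 * η),
    ⟨div_pos (by linarith) h1, by rw [div_lt_one h1]; linarith⟩, ?_⟩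
  rw [smul_smul, smul_smul, div_mul_cancel₀ _ h1.ne', div_mul_cancel₀ _ h1.ne']
  nth_rewrite 1 [hrep]
  module

lemma par_bounded (c A B : E3) :
    Bornology.IsBounded
      {x : E3 | ∃ s ∈ Set.Ioo (0 : ℝ) 1, ∃ t ∈ Set.Ioo (0 : ℝ) 1, x = c + s • A + t • B} := by
  apply (Metric.isBounded_closedBall (x := (0 : E3)) (r := ‖c‖ + ‖A‖ + ‖B‖)).subset
  rintro x ⟨s, ⟨hs0, hs1⟩, t, ⟨ht0, ht1⟩, rfl⟩
  rw [mem_closedBall_zero_iff]
  calc ‖c + s • A + t • B‖ ≤ ‖c‖ + ‖s • A‖ + ‖t • B‖ := norm_add₃_le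
    _ ≤ ‖c‖ + ‖A‖ + ‖B‖ := by
        rw [norm_smul, norm_smul, Real.norm_eq_abs, Real.norm_eq_abs, abs_of_pos hs0,
          abs_of_pos ht0]
        have := norm_nonneg A
        have := norm_nonneg B
        nlinarith

lemma BB_bounded (h η : ℝ) (hh : 0 < h) (hη : 0 < η) (c a b g : E2) (ha : a ≠ 0)
    (hab : ‖b‖ = ‖a‖) (horth : inner ℝ a b = 0) : Bornology.IsBounded (BB h η c a b g) :=
  (par_bounded _ _ _).subset (BB_sub_par h η hh hη c a b g ha hab horth)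

lemma BB_measure (hAK : ParLe) (h η : ℝ) (hh : 0 < h) (hη : 0 < η) (c a b g : E2) (ha : a ≠ 0)
    (hab : ‖b‖ = ‖a‖) (horth : inner ℝ a b = 0) :
    (μHE[2] (BB h η c a b g)).toReal
      ≤ (1 + 2 * η) ^ 2 * (h * ‖a‖ ^ 2 / Real.sqrt (mm h g)) := by
  have hsub := BB_sub_par h η hh hη c a b g ha hab horth
  have hle := (measure_mono (μ := μHE[2]) hsub).trans (hAK _ _ _)
  have h1 : (0 : ℝ) < 1 + 2 * η := by linarith
  have hm := mm_pos h g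
  obtain ⟨hn, hn2, hb2, ho⟩ := square_rel a b ha hab horth
  have hG : Real.sqrt (‖(1 + 2 * η) • PP h g a‖ ^ 2 * ‖(1 + 2 * η) • PP h g b‖ ^ 2
      - inner ℝ ((1 + 2 * η) • PP h g a) ((1 + 2 * η) • PP h g b) ^ 2)
      = (1 + 2 * η) ^ 2 * (h * ‖a‖ ^ 2 / Real.sqrt (mm h g)) := by
    rw [norm_smul, norm_smul, real_inner_smul_left, real_inner_smul_right, Real.norm_eq_abs,
      abs_of_pos h1]
    have e1 : ((1 + 2 * η) * ‖PP h g a‖) ^ 2 * ((1 + 2 * η) * ‖PP h g b‖) ^ 2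
        - ((1 + 2 * η) * ((1 + 2 * η) * inner ℝ (PP h g a) (PP h g b))) ^ 2
        = ((1 + 2 * η) ^ 2) ^ 2
          * (‖PP h g a‖ ^ 2 * ‖PP h g b‖ ^ 2 - inner ℝ (PP h g a) (PP h g b) ^ 2) := by ring
    rw [e1, gram_PP]
    have hdet : (a 0 * b 1 - a 1 * b 0) ^ 2 = (‖a‖ ^ 2) ^ 2 := by
      rw [hn2]
      linear_combination (a 0 ^ 2 + a 1 ^ 2) * hb2 - (a 0 * b 0 + a 1 * b 1) * ho
    rw [hdet]
    have e2 : ((1 + 2 * η) ^ 2) ^ 2 * (h ^ 2 * (‖a‖ ^ 2) ^ 2 / mm h g)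
        = ((1 + 2 * η) ^ 2 * (h * ‖a‖ ^ 2 / Real.sqrt (mm h g))) ^ 2 := by
      rw [mul_pow, div_pow, Real.sq_sqrt hm.le]; ring
    rw [e2]
    exact Real.sqrt_sq (by positivity)
  rw [hG] at hle
  exact ENNReal.toReal_le_of_le_ofReal (by positivity) hle

lemma BB_cover (h η : ℝ) (hh : 0 < h) (hη : 0 < η) (c a b g : E2) (ha : a ≠ 0)
    (hab : ‖b‖ = ‖a‖) (horth : inner ℝ a b = 0) (s X Y : ℝ) (hX : X ∈ Set.Icc (0 : ℝ) 1)
    (hY : Y ∈ Set.Icc (0 : ℝ) 1) (ζ : E2) (hζ : ζ = c + X • a + Y • b + s • g) :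
    ∃ y ∈ BB h η c a b g, ∃ τ : ℝ, (!₂[s, ζ 0, h * ζ 1] : E3) = y + τ • uu h g := by
  obtain ⟨hn, hn2, hb2, ho⟩ := square_rel a b ha hab horth
  have hζ0 : ζ 0 = c 0 + X * a 0 + Y * b 0 + s * g 0 := by rw [hζ]; simp
  have hζ1 : ζ 1 = c 1 + X * a 1 + Y * b 1 + s * g 1 := by rw [hζ]; simp
  set z : E3 := !₂[s, ζ 0, h * ζ 1] with hz
  set τ : ℝ := inner ℝ z (uu h g) with hτ
  have hXX : ∀ d : E2, XX h c d g (‖a‖ ^ 2) (z - τ • uu h g)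
      = ((X * a 0 + Y * b 0) * d 0 + (X * a 1 + Y * b 1) * d 1) / ‖a‖ ^ 2 := by
    intro d
    unfold XX
    congr 1
    simp [hz, uu, ww]
    rw [hζ0, hζ1]
    field_simp
    ring
  have hXa : XX h c a g (‖a‖ ^ 2) (z - τ • uu h g) = X := by
    rw [hXX, div_eq_iff hn.ne', hn2]
    linear_combination Y * ho
  have hYb : XX h c b g (‖a‖ ^ 2) (z - τ • uu h g) = Y := by
    rw [hXX, div_eq_iff hn.ne', hn2]
    linear_combination X * ho + Y * hb2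
  refine ⟨z - τ • uu h g, ⟨?_, ?_⟩, τ, by simp⟩
  · refine ⟨?_, ?_, ?_, ?_⟩
    · rw [hXa]; linarith [hX.1]
    · rw [hXa]; linarith [hX.2]
    · rw [hYb]; linarith [hY.1]
    · rw [hYb]; linarith [hY.2]
  · show inner ℝ (z - τ • uu h g) (uu h g) = 0
    rw [inner_sub_left, real_inner_smul_left, real_inner_self_eq_norm_sq, norm_uu]
    simp [hτ]

/-- the frozen statement S0326, as a proposition. -/
def S0326Statement : Prop :=
  ∀ (D : Set (EuclideanSpace ℝ (Fin 2))) (_ : IsCompact D)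
    (V : EuclideanSpace ℝ (Fin 2) → EuclideanSpace ℝ (Fin 2)) (U : Set (EuclideanSpace ℝ (Fin 2)))
    (_ : IsOpen U) (_ : D ⊆ U) (_ : ContDiffOn ℝ 1 V U) (L h : ℝ) (_ : 0 < L) (_ : 0 < h)
    (_ : ∀ p ∈ D, LinearMap.trace ℝ _ (fderiv ℝ V p).toLinearMap = 0)
    (_ : ∀ p ∈ D, -(L ^ 2)⁻¹ < LinearMap.det (fderiv ℝ V p).toLinearMap ∧
      LinearMap.det (fderiv ℝ V p).toLinearMap ≤ 0)
    (ε : ℝ) (_ : 0 < ε),
    ∃ (k : ℕ) (c a b g : Fin k → EuclideanSpace ℝ (Fin 2)),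
      (∀ i, a i ≠ 0 ∧ ‖b i‖ = ‖a i‖ ∧ inner ℝ (a i) (b i) = 0) ∧
      {z : ℝ × EuclideanSpace ℝ (Fin 2) | ∃ p ∈ D, abs z.1 ≤ L ∧ z.2 = p + z.1 • V p} ⊆
        ⋃ i, {z : ℝ × EuclideanSpace ℝ (Fin 2) | ∃ x ∈ Set.Icc (0 : ℝ) 1, ∃ y ∈ Set.Icc (0 : ℝ) 1,
          z.2 = c i + x • a i + y • b i + z.1 • g i} ∧
      ∑ i, ‖a i‖ ^ 2 / Real.sqrt (1 + (g i 0) ^ 2 + h ^ 2 * (g i 1) ^ 2) ≤
        (∫ p in D, 1 / Real.sqrt (1 + (V p 0) ^ 2 + h ^ 2 * (V p 1) ^ 2)) + ε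

/-- **S0329 from S0326 and the parallelogram area bound.** -/
theorem s0329_of (h326 : S0326Statement) (hAK : ParLe)
    (h M : ℝ) (hh : 0 < h) (hM : 0 < M) (D : Set (EuclideanSpace ℝ (Fin 2))) (hD : IsCompact D)
    (V : EuclideanSpace ℝ (Fin 2) → EuclideanSpace ℝ (Fin 2)) (U : Set (EuclideanSpace ℝ (Fin 2)))
    (hU : IsOpen U) (hDU : D ⊆ U) (hV : ContDiffOn ℝ 1 V U)
    (htr : ∀ p ∈ D, LinearMap.trace ℝ _ (fderiv ℝ V p).toLinearMap = 0)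
    (hdet : ∀ p ∈ D, -(M ^ 2)⁻¹ < LinearMap.det (fderiv ℝ V p).toLinearMap ∧
      LinearMap.det (fderiv ℝ V p).toLinearMap < 0)
    (ε : ℝ) (hε : 0 < ε) :
    ∃ (k : ℕ) (u : Fin k → EuclideanSpace ℝ (Fin 3)) (B : Fin k → Set (EuclideanSpace ℝ (Fin 3))),
      (∀ i, ‖u i‖ = 1) ∧
      (∀ i, Bornology.IsBounded (B i) ∧ ∃ O : Set (EuclideanSpace ℝ (Fin 3)), IsOpen O ∧
        B i = O ∩ {x | inner ℝ x (u i) = 0}) ∧
      {z : EuclideanSpace ℝ (Fin 3) | ∃ p ∈ D, ∃ x : ℝ, abs x ≤ M ∧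
          z = !₂[x, p 0 + x * V p 0, h * (p 1 + x * V p 1)]} ⊆
        ⋃ i, {z : EuclideanSpace ℝ (Fin 3) | ∃ y ∈ B i, ∃ τ : ℝ, z = y + τ • u i} ∧
      ∑ i, (μHE[2] (B i)).toReal ≤
        h * (∫ p in D, 1 / Real.sqrt (1 + (V p 0) ^ 2 + h ^ 2 * (V p 1) ^ 2)) + ε := by
  obtain ⟨k, c, a, b, g, hsq, hcov, hsum⟩ := h326 D hD V U hU hDU hV M h hM hh htr
    (fun p hp => ⟨(hdet p hp).1, (hdet p hp).2.le⟩) (ε / (2 * h)) (by positivity)
  set Q : ℝ := ∑ i, ‖a i‖ ^ 2 / Real.sqrt (1 + (g i 0) ^ 2 + h ^ 2 * (g i 1) ^ 2) with hQ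
  have hQ0 : 0 ≤ Q := Finset.sum_nonneg (fun i _ => by positivity)
  set η : ℝ := min (1 / 4) (ε / (10 * h * (Q + 1))) with hη
  have hη0 : 0 < η := lt_min (by norm_num) (by positivity)
  have hη4 : η ≤ 1 / 4 := min_le_left _ _
  have hηQ : η ≤ ε / (10 * h * (Q + 1)) := min_le_right _ _
  refine ⟨k, fun i => uu h (g i), fun i => BB h η (c i) (a i) (b i) (g i), ?_, ?_, ?_, ?_⟩
  · intro i; exact norm_uu h (g i)
  · intro i
    exact ⟨BB_bounded h η hh hη0 _ _ _ _ (hsq i).1 (hsq i).2.1 (hsq i).2.2,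
      OO h η (c i) (a i) (b i) (g i), isOpen_OO _ _ _ _ _ _, rfl⟩
  · rintro z ⟨p, hp, x, hx, rfl⟩
    have hmem : ((x, p + x • V p) : ℝ × EuclideanSpace ℝ (Fin 2)) ∈
        {z : ℝ × EuclideanSpace ℝ (Fin 2) | ∃ p ∈ D, abs z.1 ≤ M ∧ z.2 = p + z.1 • V p} :=
      ⟨p, hp, hx, rfl⟩
    have := hcov hmem
    simp only [Set.mem_iUnion, Set.mem_ofPred_eq] at this
    obtain ⟨i, X, hX, Y, hY, hXY⟩ := this
    obtain ⟨y, hy, τ, hτ⟩ := BB_cover h η hh hη0 (c i) (a i) (b i) (g i) (hsq i).1 (hsq i).2.1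
      (hsq i).2.2 x X Y hX hY (p + x • V p) hXY
    simp only [Set.mem_iUnion, Set.mem_ofPred_eq]
    refine ⟨i, y, hy, τ, ?_⟩
    rw [← hτ]
    simp
  · have h1 : ∀ i, (μHE[2] (BB h η (c i) (a i) (b i) (g i))).toReal
        ≤ (1 + 2 * η) ^ 2 * (h * (‖a i‖ ^ 2 / Real.sqrt (1 + (g i 0) ^ 2 + h ^ 2 * (g i 1) ^ 2))) := by
      intro i
      have := BB_measure hAK h η hh hη0 (c i) (a i) (b i) (g i) (hsq i).1 (hsq i).2.1 (hsq i).2.2
      rw [mul_div_assoc] at this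
      exact this
    have h2 : ∑ i, (μHE[2] (BB h η (c i) (a i) (b i) (g i))).toReal
        ≤ (1 + 2 * η) ^ 2 * (h * Q) := by
      rw [hQ, Finset.mul_sum, Finset.mul_sum]
      exact Finset.sum_le_sum (fun i _ => h1 i)
    have hS : Q ≤ (∫ p in D, 1 / Real.sqrt (1 + (V p 0) ^ 2 + h ^ 2 * (V p 1) ^ 2))
        + ε / (2 * h) := hsum
    have h3 : η * (10 * h * (Q + 1)) ≤ ε := by
      rwa [le_div_iff₀ (by positivity)] at hηQ
    have h4 : h * (ε / (2 * h)) = ε / 2 := by field_simp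
    calc ∑ i, (μHE[2] (BB h η (c i) (a i) (b i) (g i))).toReal
        ≤ (1 + 2 * η) ^ 2 * (h * Q) := h2
      _ = h * Q + (4 * η + 4 * η ^ 2) * (h * Q) := by ring
      _ ≤ h * Q + 5 * η * (h * Q) := by
          have : 4 * η + 4 * η ^ 2 ≤ 5 * η := by nlinarith
          have hhQ : 0 ≤ h * Q := by positivity
          nlinarith
      _ ≤ h * Q + ε / 2 := by nlinarith [mul_nonneg hη0.le hh.le]
      _ ≤ h * ((∫ p in D, 1 / Real.sqrt (1 + (V p 0) ^ 2 + h ^ 2 * (V p 1) ^ 2))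
            + ε / (2 * h)) + ε / 2 := by
          have := mul_le_mul_of_nonneg_left hS hh.le
          linarith
      _ = h * (∫ p in D, 1 / Real.sqrt (1 + (V p 0) ^ 2 + h ^ 2 * (V p 1) ^ 2)) + ε := by
          rw [mul_add, h4]; ring

end Crest.Agent.Helper29.S0329
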