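/-
helper29: the parallelogram bound `ParLe` needed by the S0329 glue, from helper10's area core.
-/
import Crest.Agent.Helper10.Area
import Crest.Agent.Helper29.S0329Glue

set_option autoImplicit false

open MeasureTheory

namespace Crest.Agent.Helper29.S0329

/-- the open unit square of the Euclidean plane has volume at most one. -/
lemma volume_open_square_le :
    volume {z : E2 | z 0 ∈ Set.Ioo (0 : ℝ) 1 ∧ z 1 ∈ Set.Ioo (0 : ℝ) 1} ≤ 1 := by
  have hmp := PiLp.volume_preserving_ofLp (Fin 2)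
  have hset : {z : E2 | z 0 ∈ Set.Ioo (0 : ℝ) 1 ∧ z 1 ∈ Set.Ioo (0 : ℝ) 1}
      = (WithLp.ofLp : E2 → (Fin 2 → ℝ)) ⁻¹'
        (Set.pi Set.univ fun _ : Fin 2 => Set.Ioo (0 : ℝ) 1) := by
    ext z
    simp only [Set.mem_ofPred_eq, Set.mem_preimage, Set.mem_pi, Set.mem_univ, forall_true_left]
    constructor
    · rintro ⟨h0, h1⟩ i
      fin_cases i
      · exact h0
      · exact h1
    · intro h
      exact ⟨h 0, h 1⟩
  rw [hset, hmp.measure_preimage
    (MeasurableSet.univ_pi fun _ => measurableSet_Ioo).nullMeasurableSet, Real.volume_pi_Ioo]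
  simp

theorem parLe : ParLe := by
  intro c A B
  have himg : {x : E3 | ∃ s ∈ Set.Ioo (0 : ℝ) 1, ∃ t ∈ Set.Ioo (0 : ℝ) 1, x = c + s • A + t • B}
      = (fun z : E2 => c + z 0 • A + z 1 • B) ''
        {z : E2 | z 0 ∈ Set.Ioo (0 : ℝ) 1 ∧ z 1 ∈ Set.Ioo (0 : ℝ) 1} := by
    ext x
    simp only [Set.mem_ofPred_eq, Set.mem_image]
    constructor
    · rintro ⟨s, hs, t, ht, rfl⟩
      exact ⟨!₂[s, t], ⟨by simpa using hs, by simpa using ht⟩, by simp⟩
    · rintro ⟨z, ⟨h0, h1⟩, rfl⟩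
      exact ⟨z 0, h0, z 1, h1, rfl⟩
  rw [himg, Crest.Agent.Helper10.muHE_image_plane]
  calc ENNReal.ofReal (Real.sqrt (‖A‖ ^ 2 * ‖B‖ ^ 2 - inner ℝ A B ^ 2))
        * volume {z : E2 | z 0 ∈ Set.Ioo (0 : ℝ) 1 ∧ z 1 ∈ Set.Ioo (0 : ℝ) 1}
      ≤ ENNReal.ofReal (Real.sqrt (‖A‖ ^ 2 * ‖B‖ ^ 2 - inner ℝ A B ^ 2)) * 1 := by
        gcongr
        exact volume_open_square_le
    _ = _ := mul_one _

end Crest.Agent.Helper29.S0329
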