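import Crest.Agent.Helper5.SqBasic

/-!
# Row 211 / S0326: the cost (Riemann-sum) half

`cost_bound`: the total cost of a two-level family of sub-squares is bounded by the integral of
the cost density over `D`, up to explicit error terms.  Statement frozen by helper5 (board #205).
The measurability / volume of the rotated squares (helper22's K3) are explicit hypotheses.
-/

set_option autoImplicit false

namespace Crest.Agent.Helper29

open MeasureTheory Crest.Agent.Helper5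

/-- The integrals of a function that is nonnegative on `T` over finitely many pairwise disjoint
measurable subsets of `T` sum to at most the integral over `T`. -/
theorem sum_setIntegral_le {α ι : Type*} [MeasurableSpace α] (μ : Measure α) (T : Set α)
    (hT : MeasurableSet T) (g : α → ℝ) (hg : IntegrableOn g T μ) (hg0 : ∀ x ∈ T, 0 ≤ g x)
    (t : Finset ι) (s : ι → Set α) (hs : ∀ i ∈ t, MeasurableSet (s i))
    (hsT : ∀ i ∈ t, s i ⊆ T)
    (hd : ∀ i ∈ t, ∀ j ∈ t, i ≠ j → Disjoint (s i) (s j)) :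
    ∑ i ∈ t, ∫ x in s i, g x ∂μ ≤ ∫ x in T, g x ∂μ := by
  rw [← integral_biUnion_finset t hs (fun i hi j hj hij => hd i hi j hj hij)
    (fun i hi => hg.mono_set (hsT i hi))]
  refine setIntegral_mono_set hg ((ae_restrict_iff' hT).2 (Filter.Eventually.of_forall hg0)) ?_
  exact (Set.iUnion₂_subset hsT).eventuallyLE

/-- A set integral is at most `c * μ.real A` if the integrand is at most `c` on `A`. -/
theorem setIntegral_le_const_mul {α : Type*} [MeasurableSpace α] (μ : Measure α) (A : Set α)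
    (hA : MeasurableSet A) (hμA : μ A ≠ ⊤) (g : α → ℝ) (hg : IntegrableOn g A μ) (c : ℝ)
    (hc : ∀ x ∈ A, g x ≤ c) : ∫ x in A, g x ∂μ ≤ c * μ.real A := by
  have h := setIntegral_mono_on hg (integrableOn_const hμA) hA hc
  rw [setIntegral_const] at h
  simpa [mul_comm] using h

theorem cost_bound
    (hmeas : ∀ (f : OrthonormalBasis (Fin 2) ℝ E2) (c : E2) (ρ : ℝ), MeasurableSet (sq f c ρ))
    (hvol : ∀ (f : OrthonormalBasis (Fin 2) ℝ E2) (c : E2) (ρ : ℝ), 0 ≤ ρ →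
      volume (sq f c ρ) = ENNReal.ofReal (ρ ^ 2))
    (D K0 : Set E2) (hD : IsCompact D) (hK0 : IsCompact K0)
    (F : E2 → ℝ) (hF : ContinuousOn F K0) (hF01 : ∀ q ∈ K0, 0 ≤ F q ∧ F q ≤ 1)
    (f₀ : OrthonormalBasis (Fin 2) ℝ E2) (r t ρ τ : ℝ) (hr : 0 < r) (ht : 0 ≤ t) (hρ : 0 < ρ)
    (hτ : 0 ≤ τ)
    (hDr : Metric.cthickening (2 * r) D ⊆ K0)
    (Z : Finset (ℤ × ℤ))
    (hZ : ∀ z ∈ Z, (sq f₀ (latPt f₀ 0 r z) r ∩ D).Nonempty)
    (hZK : ∀ z ∈ Z, sq f₀ (latPt f₀ 0 r z - t • (f₀ 0 + f₀ 1)) (r + 2 * t) ⊆ K0)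
    (fz : ℤ × ℤ → OrthonormalBasis (Fin 2) ℝ E2) (pz : ℤ × ℤ → E2) (I : ℤ × ℤ → Finset (ℤ × ℤ))
    (hI : ∀ z ∈ Z, ∀ j ∈ I z, sq (fz z) (latPt (fz z) (pz z) ρ j) ρ ⊆
      sq f₀ (latPt f₀ 0 r z - t • (f₀ 0 + f₀ 1)) (r + 2 * t))
    (Jv : ℤ × ℤ → ℤ × ℤ → ℝ)
    (hJ : ∀ z ∈ Z, ∀ j ∈ I z, ∀ q ∈ sq (fz z) (latPt (fz z) (pz z) ρ j) ρ, Jv z j ≤ F q + τ) :
    ∑ z ∈ Z, ∑ j ∈ I z, ρ ^ 2 * Jv z j ≤
      (∫ q in D, F q) + (τ + (1 + τ) * ((1 + 2 * t / r) ^ 2 - 1)) * (volume K0).toReal +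
        (1 + (τ + (1 + τ) * ((1 + 2 * t / r) ^ 2 - 1))) *
          ((volume (Metric.cthickening (2 * r) D)).toReal - (volume D).toReal) := by
  classical
  set θ : ℝ := (1 + 2 * t / r) ^ 2 - 1 with hθ
  have hθ0 : 0 ≤ θ := by
    have h : 0 ≤ 2 * t / r := by positivity
    rw [hθ]; nlinarith
  have hθr : (r + 2 * t) ^ 2 - r ^ 2 = r ^ 2 * θ := by
    rw [hθ]; field_simp
  set τ₂ : ℝ := τ + (1 + τ) * θ with hτ₂
  have hτ₂0 : 0 ≤ τ₂ := by positivity
  set Dr := Metric.cthickening (2 * r) D with hDrdef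
  have hDrc : IsCompact Dr := hD.cthickening
  have hDDr : D ⊆ Dr := Metric.self_subset_cthickening D
  have hDm : MeasurableSet D := hD.measurableSet
  have hDrm : MeasurableSet Dr := hDrc.measurableSet
  have hK0fin : volume K0 ≠ ⊤ := hK0.measure_lt_top.ne
  have hDrfin : volume Dr ≠ ⊤ := hDrc.measure_lt_top.ne
  have hDfin : volume D ≠ ⊤ := hD.measure_lt_top.ne
  have hFint : IntegrableOn F K0 volume := hF.integrableOn_compact hK0
  have hGint : ∀ c : ℝ, IntegrableOn (fun q => F q + c) K0 volume :=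
    fun c => hFint.add (integrableOn_const hK0fin)
  -- steps (A) and (B)
  have hAB : ∀ z ∈ Z, ∑ j ∈ I z, ρ ^ 2 * Jv z j ≤
      ∫ q in sq f₀ (latPt f₀ 0 r z - t • (f₀ 0 + f₀ 1)) (r + 2 * t), (F q + τ) := by
    intro z hz
    calc ∑ j ∈ I z, ρ ^ 2 * Jv z j
        ≤ ∑ j ∈ I z, ∫ q in sq (fz z) (latPt (fz z) (pz z) ρ j) ρ, (F q + τ) := by
          refine Finset.sum_le_sum fun j hj => ?_
          have h1 := setIntegral_ge_of_const_le_real (μ := volume)
            (hmeas (fz z) (latPt (fz z) (pz z) ρ j) ρ)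
            (by rw [hvol _ _ _ hρ.le]; exact ENNReal.ofReal_ne_top) (hJ z hz j hj)
            ((hGint τ).mono_set ((hI z hz j hj).trans (hZK z hz)))
          rw [Measure.real, hvol _ _ _ hρ.le, ENNReal.toReal_ofReal (by positivity)] at h1
          linarith
      _ ≤ _ := by
          refine sum_setIntegral_le volume _ (hmeas _ _ _) _ ((hGint τ).mono_set (hZK z hz))
            (fun x hx => ?_) (I z) _ (fun j _ => hmeas _ _ _) (fun j hj => hI z hz j hj)
            (fun i _ j _ hij => cell_disjoint (fz z) (pz z) ρ hρ i j hij)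
          have := hF01 x (hZK z hz hx)
          linarith
  -- step (C)
  have hC : ∀ z ∈ Z, ∫ q in sq f₀ (latPt f₀ 0 r z - t • (f₀ 0 + f₀ 1)) (r + 2 * t), (F q + τ) ≤
      ∫ q in sq f₀ (latPt f₀ 0 r z) r, (F q + τ₂) := by
    intro z hz
    have hAB' : sq f₀ (latPt f₀ 0 r z) r ⊆ sq f₀ (latPt f₀ 0 r z - t • (f₀ 0 + f₀ 1)) (r + 2 * t) :=
      sq_subset_sq_thick f₀ _ r t ht
    have hBK := hZK z hz
    have hAm := hmeas f₀ (latPt f₀ 0 r z) r
    have hBm := hmeas f₀ (latPt f₀ 0 r z - t • (f₀ 0 + f₀ 1)) (r + 2 * t)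
    have hvA : volume.real (sq f₀ (latPt f₀ 0 r z) r) = r ^ 2 := by
      rw [Measure.real, hvol _ _ _ hr.le, ENNReal.toReal_ofReal (by positivity)]
    have hvB : volume.real (sq f₀ (latPt f₀ 0 r z - t • (f₀ 0 + f₀ 1)) (r + 2 * t)) =
        (r + 2 * t) ^ 2 := by
      rw [Measure.real, hvol _ _ _ (by positivity), ENNReal.toReal_ofReal (by positivity)]
    have hBfin : volume (sq f₀ (latPt f₀ 0 r z - t • (f₀ 0 + f₀ 1)) (r + 2 * t)) ≠ ⊤ := by
      rw [hvol _ _ _ (by positivity)]; exact ENNReal.ofReal_ne_top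
    have h1 := setIntegral_sdiff hAm ((hGint τ).mono_set hBK) hAB'
    have h2 := setIntegral_le_const_mul volume _ (hBm.diff hAm)
      (measure_ne_top_of_subset Set.sdiff_subset hBfin) _
      ((hGint τ).mono_set (Set.sdiff_subset.trans hBK)) (1 + τ)
      (fun x hx => by have := hF01 x (hBK hx.1); linarith)
    rw [measureReal_sdiff hAB' hAm hBfin, hvA, hvB, hθr] at h2
    have h3 : ∫ q in sq f₀ (latPt f₀ 0 r z) r, (F q + τ₂) =
        (∫ q in sq f₀ (latPt f₀ 0 r z) r, (F q + τ)) + (1 + τ) * θ * r ^ 2 := by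
      have e : (fun q => F q + τ₂) = fun q => (F q + τ) + (1 + τ) * θ := by
        funext q; rw [hτ₂]; ring
      rw [e, integral_add ((hGint τ).mono_set (hAB'.trans hBK))
        (integrableOn_const (measure_ne_top_of_subset hAB' hBfin)), setIntegral_const, hvA]
      simp [mul_comm]
    linarith
  -- step (D)
  have hD' : ∑ z ∈ Z, ∫ q in sq f₀ (latPt f₀ 0 r z) r, (F q + τ₂) ≤ ∫ q in Dr, (F q + τ₂) := by
    refine sum_setIntegral_le volume Dr hDrm _ ((hGint τ₂).mono_set hDr) (fun x hx => ?_) Z _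
      (fun z _ => hmeas _ _ _) (fun z hz p hp => ?_)
      (fun i _ j _ hij => cell_disjoint f₀ 0 r hr i j hij)
    · have := hF01 x (hDr hx); linarith
    · obtain ⟨q, hq1, hq2⟩ := hZ z hz
      exact Metric.mem_cthickening_of_dist_le p q (2 * r) D hq2
        (by rw [dist_eq_norm]; exact norm_sub_le_of_mem_sq f₀ _ r p q hp hq1)
  -- step (E)
  have hE : ∫ q in Dr, (F q + τ₂) ≤
      (∫ q in D, F q) + τ₂ * volume.real D + (1 + τ₂) * (volume.real Dr - volume.real D) := by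
    have h1 := setIntegral_sdiff hDm ((hGint τ₂).mono_set hDr) hDDr
    have h2 := setIntegral_le_const_mul volume _ (hDrm.diff hDm)
      (measure_ne_top_of_subset Set.sdiff_subset hDrfin) _
      ((hGint τ₂).mono_set (Set.sdiff_subset.trans hDr)) (1 + τ₂)
      (fun x hx => by have := hF01 x (hDr hx.1); linarith)
    rw [measureReal_sdiff hDDr hDm hDrfin] at h2
    have h3 : ∫ q in D, (F q + τ₂) = (∫ q in D, F q) + τ₂ * volume.real D := by
      rw [integral_add (hFint.mono_set (hDDr.trans hDr)) (integrableOn_const hDfin),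
        setIntegral_const]
      simp [mul_comm]
    linarith
  have hDK : volume.real D ≤ volume.real K0 := measureReal_mono (hDDr.trans hDr) hK0fin
  have hDK' : τ₂ * volume.real D ≤ τ₂ * volume.real K0 := mul_le_mul_of_nonneg_left hDK hτ₂0
  calc ∑ z ∈ Z, ∑ j ∈ I z, ρ ^ 2 * Jv z j
      ≤ ∑ z ∈ Z, ∫ q in sq f₀ (latPt f₀ 0 r z) r, (F q + τ₂) :=
        Finset.sum_le_sum fun z hz => (hAB z hz).trans (hC z hz)
    _ ≤ ∫ q in Dr, (F q + τ₂) := hD'
    _ ≤ _ := hE
    _ ≤ _ := by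
        simp only [Measure.real] at hDK' ⊢
        linarith

end Crest.Agent.Helper29
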